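import Vale.Agent.P030.H405.Poly
import Vale.Agent.P030.H462.Ev
import Vale.Agent.P030.H605.Ser

/-!
# P030, row P-CONN (P2): expansions of L, Li2, f6, f7 at the cusps `c0` and `c1`
-/

open PowerSeries Complex Set Filter Topology

namespace Vale.Agent.P030.H405

open T H462 H605

/-- evaluation of a rational series -/
noncomputable abbrev evq (f : ℚ⟦X⟧) (z : ℂ) : ℂ := ev (algebraMap ℚ ℂ) f z

/-- polynomial growth of a rational series -/
abbrev PGq (f : ℚ⟦X⟧) : Prop := PG (algebraMap ℚ ℂ) f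

theorem pgq_of_le_one {f : ℚ⟦X⟧} (h : ∀ n, |coeff n f| ≤ 1) : PGq f := by
  refine PG.of_le 1 0 fun n => ?_
  rw [pow_zero, mul_one, eq_ratCast, Complex.norm_ratCast]
  exact_mod_cast h n

theorem inv_nat_le_one (n : ℕ) : |(1:ℚ) / n| ≤ 1 := by
  rcases n with _ | n
  · simp
  · rw [abs_of_nonneg (by positivity), div_le_one (by positivity)]
    push_cast
    have : (0:ℚ) ≤ n := Nat.cast_nonneg n
    linarith

theorem PG_geo : PGq geo := pgq_of_le_one fun n => by simp [geo]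

theorem PG_geoa : PGq geoa := pgq_of_le_one fun n => by simp [geoa, abs_pow]

theorem PG_geo2 : PGq geo2 := pgq_of_le_one fun n => by
  simp only [geo2, coeff_mk]
  split_ifs <;> simp

theorem PG_lgm : PGq lgm := pgq_of_le_one fun n => by
  simp only [lgm, coeff_mk]
  split_ifs
  · simp
  · exact inv_nat_le_one n

theorem PG_lgp : PGq lgp := pgq_of_le_one fun n => by
  simp only [lgp, coeff_mk]
  split_ifs
  · simp
  · rw [div_eq_mul_one_div, abs_mul, abs_pow, abs_neg, abs_one, one_pow, one_mul]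
    exact inv_nat_le_one n

theorem PG_li2 : PGq li2 := pgq_of_le_one fun n => by
  simp only [li2, coeff_mk]
  split_ifs
  · simp
  · have h := inv_nat_le_one n
    rw [one_div] at h ⊢
    rw [← inv_pow, abs_pow]
    exact pow_le_one₀ (abs_nonneg _) h

theorem PG_integ {f : ℚ⟦X⟧} (hf : PGq f) : PGq (integ f) := by
  refine PG.of_deriv ?_
  rw [D_integ]
  exact hf

theorem PG_sc (q : ℚ) {f : ℚ⟦X⟧} (hf : PGq f) : PGq (sc q f) := (PG.const q).mul hf

theorem PG_1X : PGq (1 - X) := PG.one.sub PG.varX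
theorem PG_1pX : PGq (1 + X) := PG.one.add PG.varX
theorem PG_1X2 : PGq (1 - X ^ 2) := PG.one.sub (PG.varX.pow 2)

variable {z : ℂ}

theorem ev_1X (hz : ‖z‖ < 1) : evq (1 - X) z = 1 - z := by
  rw [evq, ev_sub PG.one PG.varX hz, ev_one, ev_X]

theorem ev_1pX (hz : ‖z‖ < 1) : evq (1 + X) z = 1 + z := by
  rw [evq, ev_add PG.one PG.varX hz, ev_one, ev_X]

theorem ev_1X2 (hz : ‖z‖ < 1) : evq (1 - X ^ 2) z = 1 - z ^ 2 := by
  rw [evq, ev_sub PG.one (PG.varX.pow 2) hz, ev_one, ev_pow PG.varX 2 hz, ev_X]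

theorem ev_sc (q : ℚ) {f : ℚ⟦X⟧} (hf : PGq f) (hz : ‖z‖ < 1) : evq (sc q f) z = q * evq f z := by
  rw [evq, sc, ev_mul (PG.const q) hf hz, ev_C, eq_ratCast]

theorem evq_add {f g : ℚ⟦X⟧} (hf : PGq f) (hg : PGq g) (hz : ‖z‖ < 1) :
    evq (f + g) z = evq f z + evq g z := ev_add hf hg hz

theorem evq_sub {f g : ℚ⟦X⟧} (hf : PGq f) (hg : PGq g) (hz : ‖z‖ < 1) :
    evq (f - g) z = evq f z - evq g z := ev_sub hf hg hz

theorem evq_neg (f : ℚ⟦X⟧) : evq (-f) z = -evq f z := ev_neg f z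

theorem evq_mul {f g : ℚ⟦X⟧} (hf : PGq f) (hg : PGq g) (hz : ‖z‖ < 1) :
    evq (f * g) z = evq f z * evq g z := ev_mul hf hg hz

theorem evq_pow {f : ℚ⟦X⟧} (hf : PGq f) (n : ℕ) (hz : ‖z‖ < 1) :
    evq (f ^ n) z = evq f z ^ n := ev_pow hf n hz

theorem evq_C (q : ℚ) : evq (C q) z = q := by rw [evq, ev_C, eq_ratCast]

theorem evq_one : evq 1 z = 1 := ev_one z

theorem evq_zero : evq 0 z = 0 := ev_zero z

theorem evq_X : evq X z = z := ev_X z

theorem one_sub_ne (hz : ‖z‖ < 1) : 1 - z ≠ 0 := one_sub_ne_zero (mem_Om_of_norm hz)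

theorem one_add_ne (hz : ‖z‖ < 1) : 1 + z ≠ 0 := by
  have h := one_sub_ne (z := -z) (by rwa [norm_neg])
  rwa [sub_neg_eq_add] at h

theorem ev_geo (hz : ‖z‖ < 1) : evq geo z = 1 / (1 - z) := by
  have h : evq ((1 - X) * geo) z = 1 := by rw [geo_mul]; exact ev_one z
  rw [evq, ev_mul PG_1X PG_geo hz] at h
  have h2 := ev_1X hz
  rw [evq] at h2
  rw [h2] at h
  rw [eq_div_iff (one_sub_ne hz), mul_comm]
  exact h

theorem ev_geoa (hz : ‖z‖ < 1) : evq geoa z = 1 / (1 + z) := by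
  have h : evq ((1 + X) * geoa) z = 1 := by rw [geoa_mul]; exact ev_one z
  rw [evq, ev_mul PG_1pX PG_geoa hz] at h
  have h2 := ev_1pX hz
  rw [evq] at h2
  rw [h2] at h
  rw [eq_div_iff (one_add_ne hz), mul_comm]
  exact h

theorem ev_geo2 (hz : ‖z‖ < 1) : evq geo2 z = 1 / (1 - z ^ 2) := by
  have h : evq ((1 - X ^ 2) * geo2) z = 1 := by rw [geo2_mul]; exact ev_one z
  rw [evq, ev_mul PG_1X2 PG_geo2 hz] at h
  have h2 := ev_1X2 hz
  rw [evq] at h2
  rw [h2] at h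
  have h3 : 1 - z ^ 2 ≠ 0 := by
    have : 1 - z ^ 2 = (1 - z) * (1 + z) := by ring
    rw [this]
    exact mul_ne_zero (one_sub_ne hz) (one_add_ne hz)
  rw [eq_div_iff h3, mul_comm]
  exact h

theorem ev_D_lgm (hz : ‖z‖ < 1) : evq (d⁄dX ℚ lgm) z = 1 / (1 - z) := by
  have h : evq ((1 - X) * d⁄dX ℚ lgm) z = 1 := by rw [D_lgm]; exact ev_one z
  rw [evq, ev_mul PG_1X PG_lgm.deriv hz] at h
  have h2 := ev_1X hz
  rw [evq] at h2
  rw [h2] at h
  rw [eq_div_iff (one_sub_ne hz), mul_comm]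
  exact h

theorem ev_D_lgp (hz : ‖z‖ < 1) : evq (d⁄dX ℚ lgp) z = 1 / (1 + z) := by
  have h : evq ((1 + X) * d⁄dX ℚ lgp) z = 1 := by rw [D_lgp]; exact ev_one z
  rw [evq, ev_mul PG_1pX PG_lgp.deriv hz] at h
  have h2 := ev_1pX hz
  rw [evq] at h2
  rw [h2] at h
  rw [eq_div_iff (one_add_ne hz), mul_comm]
  exact h

theorem star_ball : Star (Metric.ball (0:ℂ) 1) := by
  intro u hu t ht
  rw [mem_ball_zero_iff] at hu ⊢
  rw [norm_mul, Complex.norm_real, Real.norm_eq_abs, abs_of_nonneg ht.1]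
  calc t * ‖u‖ ≤ 1 * ‖u‖ := by gcongr; exact ht.2
    _ < 1 := by rwa [one_mul]

theorem evq_eq_of_deriv {f : ℚ⟦X⟧} {g : ℂ → ℂ} (hf : PGq f)
    (hg : ∀ z, ‖z‖ < 1 → HasDerivAt g (evq (d⁄dX ℚ f) z) z) (hz : ‖z‖ < 1) :
    evq f z = g z - g 0 + (coeff 0 f : ℚ) := by
  have key := eq_of_deriv_eq star_ball (f := evq f) (g := g) (d := evq (d⁄dX ℚ f))
    (fun u hu => hasDerivAt_ev hf (mem_ball_zero_iff.1 hu))
    (fun u hu => hg u (mem_ball_zero_iff.1 hu)) (mem_ball_zero_iff.2 hz)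
  have h0 : evq f 0 = (coeff 0 f : ℚ) := by rw [evq, ev_at_zero, eq_ratCast]
  rw [h0] at key
  linear_combination key

theorem ev_lgm (hz : ‖z‖ < 1) : evq lgm z = Lf z := by
  have h := evq_eq_of_deriv (g := Lf) PG_lgm (fun z hz => by
    rw [ev_D_lgm hz]; exact hasDerivAt_Lf (mem_Om_of_norm hz)) hz
  rw [h, Lf_zero]
  simp [lgm]

theorem hasDerivAt_log_one_add (hz : ‖z‖ < 1) :
    HasDerivAt (fun z : ℂ => log (1 + z)) (1 / (1 + z)) z := by
  have h1 : HasDerivAt (fun u : ℂ => 1 + u) 1 z := by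
    simpa using (hasDerivAt_id z).const_add 1
  exact h1.clog (mem_slitPlane_of_norm_lt_one hz)

theorem ev_lgp (hz : ‖z‖ < 1) : evq lgp z = log (1 + z) := by
  have h := evq_eq_of_deriv (g := fun z => log (1 + z)) PG_lgp (fun z hz => by
    rw [ev_D_lgp hz]; exact hasDerivAt_log_one_add hz) hz
  rw [h]
  simp [lgp]

theorem ev_li2 (hz : ‖z‖ < 1) : evq li2 z = Li z := by
  have h := evq_eq_of_deriv (g := Li) PG_li2 (fun z hz => by
    have h1 := hasDerivAt_Li (mem_Om_of_norm hz)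
    have h2 : evq (d⁄dX ℚ li2) z = dslope Lf 0 z := by
      by_cases h0 : z = 0
      · subst h0
        rw [dslope_Lf_zero_zero, evq, ev_at_zero, coeff_derivative]
        simp [li2]
      · have h3 : evq (X * d⁄dX ℚ li2) z = Lf z := by rw [D_li2]; exact ev_lgm hz
        rw [evq, ev_mul PG.varX PG_li2.deriv hz, ev_X] at h3
        rw [dslope_Lf_zero h0, eq_div_iff h0, mul_comm]
        exact h3
    rw [h2]; exact h1) hz
  rw [h, Li_zero]
  simp [li2]

theorem hasDerivAt_ev_integ {f : ℚ⟦X⟧} (hf : PGq f) (hz : ‖z‖ < 1) :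
    HasDerivAt (evq (integ f)) (evq f z) z := by
  have h := hasDerivAt_ev (PG_integ hf) hz
  rw [D_integ] at h
  exact h

theorem evq_zero_integ (f : ℚ⟦X⟧) : evq (integ f) 0 = 0 := by
  rw [evq, ev_at_zero]; simp [integ]

/-! ### the value at `-1` -/

theorem hasSum_alt : HasSum (fun n : ℕ => (-1:ℝ) ^ n / (n:ℝ) ^ 2) (-(Real.pi ^ 2 / 12)) := by
  have hz := hasSum_zeta_two
  have he : HasSum (fun n : ℕ => (1:ℝ) / ((2 * n : ℕ) : ℝ) ^ 2) (Real.pi ^ 2 / 24) := by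
    have h := hz.mul_left (1 / 4)
    have e1 : (fun n : ℕ => (1:ℝ) / ((2 * n : ℕ) : ℝ) ^ 2)
        = fun n : ℕ => 1 / 4 * (1 / (n:ℝ) ^ 2) := by
      funext n
      push_cast
      rw [mul_pow, one_div_mul_one_div]
      norm_num
    have e2 : Real.pi ^ 2 / 24 = 1 / 4 * (Real.pi ^ 2 / 6) := by ring
    rw [e1, e2]
    exact h
  have hs : Summable (fun n : ℕ => (1:ℝ) / ((2 * n + 1 : ℕ) : ℝ) ^ 2) :=
    hz.summable.comp_injective (i := fun n : ℕ => 2 * n + 1) (fun a b h => by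
      simp only at h; omega)
  have ho : HasSum (fun n : ℕ => (1:ℝ) / ((2 * n + 1 : ℕ) : ℝ) ^ 2) (Real.pi ^ 2 / 8) := by
    have h1 := HasSum.even_add_odd (f := fun n : ℕ => (1:ℝ) / (n:ℝ) ^ 2) he hs.hasSum
    have h2 := h1.unique hz
    have h3 : ∑' n : ℕ, (1:ℝ) / ((2 * n + 1 : ℕ) : ℝ) ^ 2 = Real.pi ^ 2 / 8 := by linarith
    have h4 := hs.hasSum
    rw [h3] at h4
    exact h4
  have key := HasSum.even_add_odd (f := fun n : ℕ => (-1:ℝ) ^ n / (n:ℝ) ^ 2)
    (m := Real.pi ^ 2 / 24) (m' := -(Real.pi ^ 2 / 8))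
    (by
      refine he.congr_fun fun n => ?_
      rw [pow_mul]
      norm_num)
    (by
      refine ho.neg.congr_fun fun n => ?_
      rw [pow_succ, pow_mul]
      norm_num
      ring)
  have e3 : Real.pi ^ 2 / 24 + -(Real.pi ^ 2 / 8) = -(Real.pi ^ 2 / 12) := by ring
  rw [e3] at key
  exact key

theorem continuousOn_evq_li2 : ContinuousOn (evq li2) (Metric.closedBall 0 1) := by
  have hs : Summable fun n : ℕ => (1:ℝ) / (n:ℝ) ^ 2 := hasSum_zeta_two.summable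
  refine continuousOn_tsum (u := fun n : ℕ => (1:ℝ) / (n:ℝ) ^ 2) (fun n => by fun_prop) hs ?_
  intro n x hx
  rw [mem_closedBall_zero_iff] at hx
  rw [norm_mul, norm_pow]
  have h1 : ‖x‖ ^ n ≤ 1 := pow_le_one₀ (norm_nonneg _) hx
  have h2 : ‖(algebraMap ℚ ℂ) (coeff n li2)‖ ≤ 1 / (n:ℝ) ^ 2 := by
    rw [eq_ratCast, Complex.norm_ratCast]
    simp only [li2, coeff_mk]
    split_ifs with h
    · subst h; simp
    · rw [abs_of_nonneg (by positivity)]
      push_cast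
      exact le_rfl
  calc _ ≤ 1 / (n:ℝ) ^ 2 * 1 := mul_le_mul h2 h1 (by positivity) (by positivity)
    _ = _ := mul_one _

theorem evq_li2_neg_one : evq li2 (-1) = -((Real.pi : ℂ) ^ 2 / 12) := by
  have h := (Complex.hasSum_ofReal.2 hasSum_alt).tsum_eq
  rw [evq, ev]
  have e1 : ((-(Real.pi ^ 2 / 12) : ℝ) : ℂ) = -((Real.pi : ℂ) ^ 2 / 12) := by push_cast; ring
  rw [← e1, ← h]
  refine tsum_congr fun n => ?_
  rw [eq_ratCast]
  simp only [li2, coeff_mk]
  split_ifs with h0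
  · subst h0; simp
  · push_cast
    ring

theorem Li_neg_one : Li (-1) = -((Real.pi : ℂ) ^ 2 / 12) := by
  rw [← evq_li2_neg_one]
  have hm : (-1:ℂ) ∈ closure (Metric.ball (0:ℂ) 1) := by
    rw [closure_ball _ one_ne_zero]
    simp
  have hne : (𝓝[Metric.ball (0:ℂ) 1] (-1)).NeBot := mem_closure_iff_nhdsWithin_neBot.1 hm
  have h1 : Tendsto Li (𝓝[Metric.ball (0:ℂ) 1] (-1)) (𝓝 (Li (-1))) :=
    (hasDerivAt_Li neg_one_mem_Om).continuousAt.continuousWithinAt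
  have h2 : Tendsto (evq li2) (𝓝[Metric.ball (0:ℂ) 1] (-1)) (𝓝 (evq li2 (-1))) :=
    (continuousOn_evq_li2 (-1) (by simp)).mono_left
      (nhdsWithin_mono _ Metric.ball_subset_closedBall)
  refine tendsto_nhds_unique (h1.congr' ?_) h2
  filter_upwards [self_mem_nhdsWithin] with z hz
  exact (ev_li2 (mem_ball_zero_iff.1 hz)).symm

theorem f6_neg_one : f6 (-1) = -((Real.pi : ℂ) ^ 2 / 12) := by
  have h := f6_add_f7 neg_one_mem_Om
  rw [f7_neg_one, wm_neg_one, Li_zero, Li_neg_one, add_zero, sub_zero] at h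
  exact h

theorem Jf_neg_one : Jf (-1) = l2 ^ 2 / 2 - (Real.pi : ℂ) ^ 2 / 12 := by
  have h := f6_neg_one
  rw [f6, Lf_neg_one] at h
  linear_combination h

/-! ### the cusp `c0` -/

theorem Jf_c0 (hz : ‖z‖ < 1) : Jf z = evq (integ (geoa * lgm)) z + l2 * evq lgp z := by
  have key := eq_of_deriv_eq star_ball (f := Jf)
    (g := fun z => evq (integ (geoa * lgm)) z + l2 * log (1 + z)) (d := fun z => dslope Lf (-1) z)
    (fun u hu => hasDerivAt_Jf (ball_subset_Om hu))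
    (fun u hu => by
      have hu' := mem_ball_zero_iff.1 hu
      have h1 := (hasDerivAt_ev_integ (PG_geoa.mul PG_lgm) hu').add
        ((hasDerivAt_log_one_add hu').const_mul l2)
      refine h1.congr_deriv ?_
      have h2 : u ≠ -1 := by
        intro h; exact one_add_ne hu' (by rw [h]; ring)
      rw [dslope_Lf_neg_one h2, evq_mul PG_geoa PG_lgm hu', ev_geoa hu', ev_lgm hu']
      have h5 := one_add_ne hu'
      field_simp) (mem_ball_zero_iff.2 hz)
  simp only [Jf_zero, evq_zero_integ, add_zero, Complex.log_one, mul_zero, sub_zero] at key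
  rw [key, ev_lgp hz]

theorem Lf_c0 (hz : ‖z‖ < 1) : Lf z = evq lgm z := (ev_lgm hz).symm

theorem Li_c0 (hz : ‖z‖ < 1) : Li z = evq li2 z := (ev_li2 hz).symm

theorem f6_c0 (hz : ‖z‖ < 1) : f6 z = evq (integ (geoa * lgm)) z
    + l2 * evq (sc (1 / 2) lgm + lgp) z := by
  rw [f6, Jf_c0 hz, evq_add (PG_sc _ PG_lgm) PG_lgp hz, ev_sc _ PG_lgm hz, ev_lgm hz]
  push_cast
  ring

theorem f7_c0 (hz : ‖z‖ < 1) : f7 z = evq (sc (1 / 2) (lgm ^ 2)) z
    + l2 * evq (sc (1 / 2) lgm) z := by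
  rw [f7, ev_sc _ (PG_lgm.pow 2) hz, ev_sc _ PG_lgm hz, evq_pow PG_lgm 2 hz, ev_lgm hz]
  push_cast
  ring

/-! ### the cusp `c1`: `z = w`, `u = wm w` -/

theorem Lf_c1 (hz : ‖z‖ < 1) : Lf (wm z) = evq (-lgm) z + l2 * evq (-1) z := by
  rw [Lf_wm (mem_Om_of_norm hz), evq_neg, evq_neg, ev_lgm hz, evq_one]
  ring

theorem f7_c1 (hz : ‖z‖ < 1) : f7 (wm z) = evq (sc (1 / 2) (lgm ^ 2)) z
    + l2 * evq (sc (1 / 2) lgm) z := by
  rw [f7, Lf_wm (mem_Om_of_norm hz), ev_sc _ (PG_lgm.pow 2) hz, ev_sc _ PG_lgm hz,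
    evq_pow PG_lgm 2 hz, ev_lgm hz]
  push_cast
  ring

theorem f6_c1 (hz : ‖z‖ < 1) : f6 (wm z) = evq (-li2 - sc (1 / 2) (lgm ^ 2)) z
    + l2 * evq (-sc (1 / 2) lgm) z + (Real.pi : ℂ) ^ 2 / 16 * evq (-C (4 / 3)) z := by
  have hO := mem_Om_of_norm hz
  have h1 := f6_add_f7 (wm_mem hO)
  rw [wm_wm (ne_one_of_mem hO), f7_c1 hz, Li_neg_one] at h1
  rw [evq_sub PG_li2.neg (PG_sc _ (PG_lgm.pow 2)) hz, evq_neg, evq_neg, evq_neg, evq_C, ev_li2 hz]
  push_cast
  linear_combination h1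

theorem Li_c1 (hz : ‖z‖ < 1) : Li (wm z) = evq (-sc 2 (integ (geo2 * lgm))) z
    + l2 * evq (-(lgp + lgm)) z + (Real.pi : ℂ) ^ 2 / 16 * evq (-C (4 / 3)) z := by
  have key := eq_of_deriv_eq star_ball (f := fun z => Li (wm z))
    (g := fun z => -2 * evq (integ (geo2 * lgm)) z - l2 * (log (1 + z) + Lf z))
    (d := fun z => dslope Lf 0 (wm z) * (-2 / (1 - z) ^ 2))
    (fun u hu => (hasDerivAt_Li (wm_mem (ball_subset_Om hu))).comp u
      (hasDerivAt_wm (ne_one_of_mem (ball_subset_Om hu))))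
    (fun u hu => by
      have hu' := mem_ball_zero_iff.1 hu
      have hO := ball_subset_Om hu
      have h1 := ((hasDerivAt_ev_integ (PG_geo2.mul PG_lgm) hu').const_mul (-2)).sub
        (((hasDerivAt_log_one_add hu').add (hasDerivAt_Lf hO)).const_mul l2)
      refine h1.congr_deriv ?_
      have h2 := one_add_ne hu'
      have h3 := one_sub_ne hu'
      have h4 : u + 1 ≠ 0 := by rwa [add_comm]
      have h5 : u - 1 ≠ 0 := by
        intro h6; exact h3 (by rw [← neg_sub, h6, neg_zero])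
      have h6 : wm u ≠ 0 := div_ne_zero h4 h5
      have h7 : 1 - u ^ 2 ≠ 0 := by
        have : 1 - u ^ 2 = (1 - u) * (1 + u) := by ring
        rw [this]
        exact mul_ne_zero h3 h2
      rw [evq_mul PG_geo2 PG_lgm hu', ev_geo2 hu', ev_lgm hu', dslope_Lf_zero h6, Lf_wm hO, wm]
      field_simp
      ring) (mem_ball_zero_iff.2 hz)
  simp only [wm_zero, Li_neg_one, evq_zero_integ, add_zero, Complex.log_one, mul_zero, sub_zero,
    Lf_zero] at key
  rw [evq_neg, ev_sc _ (PG_integ (PG_geo2.mul PG_lgm)) hz, evq_neg, evq_add PG_lgp PG_lgm hz,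
    evq_neg, evq_C, ev_lgp hz, ev_lgm hz]
  push_cast
  linear_combination key

/-! ### vector forms -/

/-- the first six entries of the main vector, the others free -/
noncomputable def pv (F T : ℂ) (u : ℂ) : Fin 8 → ℂ := ![1, l2, Lf u, Li u, f6 u, f7 u, F, T]

theorem pv_c0 (F T : ℂ) (hz : ‖z‖ < 1) (j : Fin 8) (hj : j.val < 6) :
    pv F T z j = evq (tup0 .z1 j) z + l2 * evq (tup0 .zl j) z := by
  fin_cases j
  · simp [pv, tup0, evq_one, evq_zero]
  · simp [pv, tup0, evq_one, evq_zero]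
  · simpa [pv, tup0, evq_zero] using Lf_c0 hz
  · simpa [pv, tup0, evq_zero] using Li_c0 hz
  · simpa [pv, tup0] using f6_c0 hz
  · simpa [pv, tup0] using f7_c0 hz
  · simp at hj
  · simp at hj

theorem pv_c1 (F T : ℂ) (hz : ‖z‖ < 1) (j : Fin 8) (hj : j.val < 6) :
    pv F T (wm z) j = evq (tup0 .w1 j) z + l2 * evq (tup0 .wl j) z
      + (Real.pi : ℂ) ^ 2 / 16 * evq (tup0 .wy j) z := by
  fin_cases j
  · simp [pv, tup0, evq_one, evq_zero]
  · simp [pv, tup0, evq_one, evq_zero]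
  · simpa [pv, tup0, evq_zero] using Lf_c1 hz
  · simpa [pv, tup0] using Li_c1 hz
  · simpa [pv, tup0] using f6_c1 hz
  · simpa [pv, tup0, evq_zero] using f7_c1 hz
  · simp at hj
  · simp at hj

end Vale.Agent.P030.H405
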