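import Vale.Agent.P030.H405.Prim

/-!
# P030, row P-CONN (P1): the functions L, Li2, f6, f7 on the plane slit along [1, oo)
-/

open Complex Set MeasureTheory Filter Topology

namespace Vale.Agent.P030.H405

/-- the complex plane slit along `[1, ∞)` -/
def Om : Set ℂ := {u | 1 - u ∈ slitPlane}

/-- `log 2` -/
noncomputable def l2 : ℂ := (Real.log 2 : ℝ)

/-- `L(u) = - log (1 - u)` -/
noncomputable def Lf (u : ℂ) : ℂ := -log (1 - u)

/-- `Li2(u) = ∫_0^u L(s) ds / s` -/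
noncomputable def Li (u : ℂ) : ℂ := prim (dslope Lf 0) u

/-- `J(u) = ∫_0^u (L(s) + l) ds / (1 + s)` -/
noncomputable def Jf (u : ℂ) : ℂ := prim (dslope Lf (-1)) u

/-- `f6 = (l / 2) L + J` -/
noncomputable def f6 (u : ℂ) : ℂ := l2 / 2 * Lf u + Jf u

/-- `f7 = L (L + l) / 2` -/
noncomputable def f7 (u : ℂ) : ℂ := Lf u * (Lf u + l2) / 2

/-! ### the domain -/

theorem mem_Om_iff {u : ℂ} : u ∈ Om ↔ u.re < 1 ∨ u.im ≠ 0 := by
  simp [Om, mem_slitPlane_iff]

theorem isOpen_Om : IsOpen Om := isOpen_slitPlane.preimage (by fun_prop)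

theorem zero_mem_Om : (0:ℂ) ∈ Om := by simp [mem_Om_iff]

theorem neg_one_mem_Om : (-1:ℂ) ∈ Om := by simp [mem_Om_iff]

theorem one_notMem_Om : (1:ℂ) ∉ Om := by simp [mem_Om_iff]

theorem star_Om : Star Om := by
  intro u hu t ht
  have h := Complex.starConvex_one_slitPlane hu (sub_nonneg.2 ht.2) ht.1 (by ring)
  have h2 : (1 - t) • (1:ℂ) + t • (1 - u) = 1 - t * u := by
    simp only [real_smul]; push_cast; ring
  rw [h2] at h
  exact h

theorem ball_subset_Om : Metric.ball (0:ℂ) 1 ⊆ Om := by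
  intro u hu
  have h := mem_ball_zero_iff.1 hu
  refine mem_Om_iff.2 (Or.inl ?_)
  exact lt_of_le_of_lt ((le_abs_self _).trans (abs_re_le_norm u)) h

theorem mem_Om_of_norm {u : ℂ} (h : ‖u‖ < 1) : u ∈ Om := ball_subset_Om (mem_ball_zero_iff.2 h)

theorem mem_Om_of_im {u : ℂ} (h : u.im ≠ 0) : u ∈ Om := mem_Om_iff.2 (Or.inr h)

theorem one_sub_ne_zero {u : ℂ} (h : u ∈ Om) : 1 - u ≠ 0 := slitPlane_ne_zero h

theorem ne_one_of_mem {u : ℂ} (h : u ∈ Om) : u ≠ 1 := by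
  rintro rfl; exact one_notMem_Om h

/-! ### L -/

theorem Lf_zero : Lf 0 = 0 := by simp [Lf]

theorem Lf_neg_one : Lf (-1) = -l2 := by
  have : (1 - (-1) : ℂ) = ((2:ℝ) : ℂ) := by norm_num
  rw [Lf, this, ← ofReal_log (by norm_num), l2]

theorem hasDerivAt_Lf {u : ℂ} (h : u ∈ Om) : HasDerivAt Lf (1 / (1 - u)) u := by
  have h1 : HasDerivAt (fun u : ℂ => 1 - u) (-1) u := by
    simpa using (hasDerivAt_id u).const_sub 1
  have h2 := (h1.clog h).neg
  refine h2.congr_deriv ?_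
  ring

theorem differentiableOn_Lf : DifferentiableOn ℂ Lf Om := fun _ h =>
  (hasDerivAt_Lf h).differentiableAt.differentiableWithinAt

theorem exp_Lf {u : ℂ} (h : u ∈ Om) : exp (Lf u) = (1 - u)⁻¹ := by
  rw [Lf, exp_neg, exp_log (one_sub_ne_zero h)]

/-! ### Li2 -/

theorem dslope_Lf_zero {u : ℂ} (h : u ≠ 0) : dslope Lf 0 u = Lf u / u := by
  rw [dslope_of_ne _ h, slope_def_field, Lf_zero]
  simp

theorem dslope_Lf_zero_zero : dslope Lf 0 0 = 1 := by
  rw [dslope_same, (hasDerivAt_Lf zero_mem_Om).deriv]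
  simp

theorem dslope_Lf_neg_one {u : ℂ} (h : u ≠ -1) : dslope Lf (-1) u = (Lf u + l2) / (1 + u) := by
  rw [dslope_of_ne _ h, slope_def_field, Lf_neg_one]
  congr 1 <;> ring

theorem dslope_Lf_neg_one_neg_one : dslope Lf (-1) (-1) = 1 / 2 := by
  rw [dslope_same, (hasDerivAt_Lf neg_one_mem_Om).deriv]
  norm_num

theorem differentiableOn_dslope_Lf {c : ℂ} (hc : c ∈ Om) :
    DifferentiableOn ℂ (dslope Lf c) Om :=
  (Complex.differentiableOn_dslope (isOpen_Om.mem_nhds hc)).2 differentiableOn_Lf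

theorem hasDerivAt_Li {u : ℂ} (h : u ∈ Om) : HasDerivAt Li (dslope Lf 0 u) u :=
  hasDerivAt_prim isOpen_Om star_Om (differentiableOn_dslope_Lf zero_mem_Om) h

theorem hasDerivAt_Li' {u : ℂ} (h : u ∈ Om) (h0 : u ≠ 0) : HasDerivAt Li (Lf u / u) u := by
  rw [← dslope_Lf_zero h0]; exact hasDerivAt_Li h

theorem hasDerivAt_Jf {u : ℂ} (h : u ∈ Om) : HasDerivAt Jf (dslope Lf (-1) u) u :=
  hasDerivAt_prim isOpen_Om star_Om (differentiableOn_dslope_Lf neg_one_mem_Om) h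

theorem hasDerivAt_Jf' {u : ℂ} (h : u ∈ Om) (h0 : u ≠ -1) :
    HasDerivAt Jf ((Lf u + l2) / (1 + u)) u := by
  rw [← dslope_Lf_neg_one h0]; exact hasDerivAt_Jf h

theorem hasDerivAt_f6 {u : ℂ} (h : u ∈ Om) :
    HasDerivAt f6 (l2 / 2 / (1 - u) + dslope Lf (-1) u) u := by
  have := ((hasDerivAt_Lf h).const_mul (l2 / 2)).add (hasDerivAt_Jf h)
  refine this.congr_deriv ?_
  ring

theorem hasDerivAt_f6' {u : ℂ} (h : u ∈ Om) (h0 : u ≠ -1) :
    HasDerivAt f6 (l2 / 2 / (1 - u) + (Lf u + l2) / (1 + u)) u := by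
  rw [← dslope_Lf_neg_one h0]; exact hasDerivAt_f6 h

theorem hasDerivAt_f7 {u : ℂ} (h : u ∈ Om) :
    HasDerivAt f7 ((Lf u + l2 / 2) / (1 - u)) u := by
  have h1 := hasDerivAt_Lf h
  have := (h1.mul (h1.add_const l2)).div_const 2
  refine this.congr_deriv ?_
  have := one_sub_ne_zero h
  field_simp
  ring

theorem differentiableOn_Li : DifferentiableOn ℂ Li Om := fun _ h =>
  (hasDerivAt_Li h).differentiableAt.differentiableWithinAt

theorem differentiableOn_Jf : DifferentiableOn ℂ Jf Om := fun _ h =>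
  (hasDerivAt_Jf h).differentiableAt.differentiableWithinAt

theorem differentiableOn_f6 : DifferentiableOn ℂ f6 Om := fun _ h =>
  (hasDerivAt_f6 h).differentiableAt.differentiableWithinAt

theorem differentiableOn_f7 : DifferentiableOn ℂ f7 Om := fun _ h =>
  (hasDerivAt_f7 h).differentiableAt.differentiableWithinAt

theorem Li_zero : Li 0 = 0 := prim_zero _
theorem Jf_zero : Jf 0 = 0 := prim_zero _
theorem f6_zero : f6 0 = 0 := by simp [f6, Lf_zero, Jf_zero]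
theorem f7_zero : f7 0 = 0 := by simp [f7, Lf_zero]
theorem f7_neg_one : f7 (-1) = 0 := by simp [f7, Lf_neg_one]

/-! ### the involution `w = (u+1)/(u-1)` -/

/-- `w = (u + 1) / (u - 1)` -/
noncomputable def wm (u : ℂ) : ℂ := (u + 1) / (u - 1)

theorem one_sub_wm {u : ℂ} (h : u ≠ 1) : 1 - wm u = 2 / (1 - u) := by
  have h1 : u - 1 ≠ 0 := sub_ne_zero.2 h
  have h2 : 1 - u ≠ 0 := sub_ne_zero.2 h.symm
  rw [wm]
  field_simp
  ring

theorem wm_ne_one {u : ℂ} (h : u ≠ 1) : wm u ≠ 1 := by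
  intro h1
  have h2 := one_sub_wm h
  rw [h1, sub_self] at h2
  have h3 : (2:ℂ) / (1 - u) ≠ 0 := div_ne_zero two_ne_zero (sub_ne_zero.2 h.symm)
  exact h3 h2.symm

theorem wm_wm {u : ℂ} (h : u ≠ 1) : wm (wm u) = u := by
  have h1 : u - 1 ≠ 0 := sub_ne_zero.2 h
  have h2 : wm u - 1 = 2 / (u - 1) := by
    rw [wm]; field_simp; ring
  have h3 : wm u + 1 = 2 * u / (u - 1) := by
    rw [wm]; field_simp; ring
  rw [wm, h2, h3]
  field_simp

theorem wm_mem {u : ℂ} (h : u ∈ Om) : wm u ∈ Om := by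
  have h1 := one_sub_ne_zero h
  show 1 - wm u ∈ slitPlane
  rw [one_sub_wm (ne_one_of_mem h)]
  have h2 : (1 - u)⁻¹ ∈ slitPlane := by
    rw [mem_slitPlane_iff_arg]
    refine ⟨?_, inv_ne_zero h1⟩
    rw [arg_inv, if_neg (slitPlane_arg_ne_pi h)]
    intro h3
    have := (neg_pi_lt_arg (1 - u))
    linarith
  rw [mem_slitPlane_iff] at h2 ⊢
  have h4 : (2:ℂ) / (1 - u) = ((2:ℝ):ℂ) * (1 - u)⁻¹ := by push_cast; rw [div_eq_mul_inv]
  rw [h4, re_ofReal_mul, im_ofReal_mul]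
  rcases h2 with h2 | h2
  · left; linarith
  · right; exact mul_ne_zero two_ne_zero h2

theorem Lf_wm {u : ℂ} (h : u ∈ Om) : Lf (wm u) = -(l2 + Lf u) := by
  have h1 := one_sub_ne_zero h
  rw [Lf, one_sub_wm (ne_one_of_mem h), Lf]
  have h4 : (2:ℂ) / (1 - u) = ((2:ℝ):ℂ) * (1 - u)⁻¹ := by push_cast; rw [div_eq_mul_inv]
  rw [h4, log_ofReal_mul (by norm_num) (inv_ne_zero h1), log_inv _ (slitPlane_arg_ne_pi h), l2,
    neg_add, neg_neg]

theorem hasDerivAt_wm {u : ℂ} (h : u ≠ 1) : HasDerivAt wm (-2 / (1 - u) ^ 2) u := by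
  have h1 : u - 1 ≠ 0 := sub_ne_zero.2 h
  have h2 : 1 - u ≠ 0 := sub_ne_zero.2 h.symm
  have h3 := ((hasDerivAt_id u).add_const 1).div ((hasDerivAt_id u).sub_const 1) h1
  refine h3.congr_deriv ?_
  simp only [id]
  rw [div_eq_div_iff (pow_ne_zero 2 h1) (pow_ne_zero 2 h2)]
  ring

theorem wm_zero : wm 0 = -1 := by simp [wm]
theorem wm_neg_one : wm (-1) = 0 := by simp [wm]

/-- `f6 + f7 = Li2(-1) - Li2(w)` -/
theorem f6_add_f7 {u : ℂ} (h : u ∈ Om) : f6 u + f7 u = Li (-1) - Li (wm u) := by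
  have key := eq_of_deriv_eq star_Om (f := fun u => f6 u + f7 u)
    (g := fun u => -Li (wm u))
    (d := fun u => (l2 / 2 / (1 - u) + dslope Lf (-1) u) + (Lf u + l2 / 2) / (1 - u))
    (fun u hu => (hasDerivAt_f6 hu).add (hasDerivAt_f7 hu))
    (fun u hu => by
      have h1 := one_sub_ne_zero hu
      have hd := ((hasDerivAt_Li (wm_mem hu)).comp u (hasDerivAt_wm (ne_one_of_mem hu))).neg
      refine hd.congr_deriv ?_
      by_cases h0 : u = -1
      · subst h0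
        rw [wm_neg_one, dslope_Lf_zero_zero, dslope_Lf_neg_one_neg_one, Lf_neg_one]
        norm_num
        ring
      · have hw : wm u ≠ 0 := by
          rw [wm, div_ne_zero_iff]
          refine ⟨?_, ?_⟩
          · intro h5; exact h0 (eq_neg_of_add_eq_zero_left h5)
          · intro h5; exact h1 (by rw [← neg_sub, h5, neg_zero])
        have h5 : (1:ℂ) + u ≠ 0 := by
          intro h5; exact h0 (eq_neg_of_add_eq_zero_right h5)
        have h6 : u - 1 ≠ 0 := by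
          intro h6; exact h1 (by rw [← neg_sub, h6, neg_zero])
        rw [dslope_Lf_zero hw, dslope_Lf_neg_one h0, Lf_wm hu, wm]
        have h7 : u + 1 ≠ 0 := by rwa [add_comm]
        field_simp
        ring) h
  simp only [f6_zero, f7_zero, wm_zero] at key
  linear_combination key

end Vale.Agent.P030.H405
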