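import Mathlib

/-!
# P030, row P-CONN: primitives of holomorphic functions on a star shaped domain
-/

open Complex Set MeasureTheory Filter Topology

namespace Vale.Agent.P030.H405

/-- the primitive `u ↦ ∫_0^1 u g(t u) dt` -/
noncomputable def prim (g : ℂ → ℂ) (u : ℂ) : ℂ := ∫ t in (0:ℝ)..1, u * g (t * u)

theorem prim_zero (g : ℂ → ℂ) : prim g 0 = 0 := by simp [prim]

/-- star shaped with respect to the origin -/
def Star (Om : Set ℂ) : Prop := ∀ u ∈ Om, ∀ t ∈ Icc (0:ℝ) 1, (t:ℂ) * u ∈ Om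

theorem hasDerivAt_prim {Om : Set ℂ} (hO : IsOpen Om) (hs : Star Om)
    {g : ℂ → ℂ} (hg : DifferentiableOn ℂ g Om) {u : ℂ} (hu : u ∈ Om) :
    HasDerivAt (prim g) (g u) u := by
  obtain ⟨r, hr, hball⟩ := Metric.nhds_basis_closedBall.mem_iff.1 (hO.mem_nhds hu)
  set Kc : Set ℂ := (fun p : ℝ × ℂ => (p.1:ℂ) * p.2) '' (Icc (0:ℝ) 1 ×ˢ Metric.closedBall u r)
    with hKdef
  have hKc : IsCompact Kc :=
    (isCompact_Icc.prod (isCompact_closedBall u r)).image (by fun_prop)
  have hKO : Kc ⊆ Om := by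
    rintro _ ⟨⟨t, z⟩, ⟨ht, hz⟩, rfl⟩
    exact hs z (hball hz) t ht
  have hmem : ∀ t ∈ Icc (0:ℝ) 1, ∀ x ∈ Metric.closedBall u r, (t:ℂ) * x ∈ Kc :=
    fun t ht x hx => ⟨(t, x), ⟨ht, hx⟩, rfl⟩
  have hg' : DifferentiableOn ℂ (deriv g) Om := hg.deriv hO
  obtain ⟨C, hC⟩ := hKc.exists_bound_of_continuousOn (hg.continuousOn.mono hKO)
  obtain ⟨C', hC'⟩ := hKc.exists_bound_of_continuousOn (hg'.continuousOn.mono hKO)
  have hI : uIcc (0:ℝ) 1 = Icc 0 1 := uIcc_of_le zero_le_one
  have hIoc : ∀ t, t ∈ uIoc (0:ℝ) 1 → t ∈ Icc (0:ℝ) 1 := by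
    intro t ht
    rw [uIoc_of_le zero_le_one] at ht
    exact ⟨ht.1.le, ht.2⟩
  have hcont : ∀ x ∈ Metric.closedBall u r, ContinuousOn (fun t : ℝ => x * g (t * x))
      (uIcc (0:ℝ) 1) := by
    intro x hx
    refine continuousOn_const.mul (hg.continuousOn.comp (by fun_prop) ?_)
    intro t ht
    rw [hI] at ht
    exact hKO (hmem t ht x hx)
  have hcont' : ContinuousOn (fun t : ℝ => g (t * u) + t * u * deriv g (t * u))
      (uIcc (0:ℝ) 1) := by
    have hm : MapsTo (fun t : ℝ => (t:ℂ) * u) (uIcc (0:ℝ) 1) Om := by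
      intro t ht
      rw [hI] at ht
      exact hs u hu t ht
    refine (hg.continuousOn.comp (by fun_prop) hm).add ?_
    exact (Continuous.continuousOn (by fun_prop)).mul (hg'.continuousOn.comp (by fun_prop) hm)
  have hbd : ∀ t ∈ Icc (0:ℝ) 1, ∀ x ∈ Metric.closedBall u r,
      ‖g (t * x) + t * x * deriv g (t * x)‖ ≤ C + (‖u‖ + r) * C' := by
    intro t ht x hx
    have h1 := hC _ (hmem t ht x hx)
    have h2 := hC' _ (hmem t ht x hx)
    have hx' : ‖x‖ ≤ ‖u‖ + r := by
      have : ‖x - u‖ ≤ r := by simpa [dist_eq_norm] using hx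
      calc ‖x‖ = ‖u + (x - u)‖ := by ring_nf
        _ ≤ ‖u‖ + ‖x - u‖ := norm_add_le _ _
        _ ≤ _ := by linarith
    have ht' : ‖(t:ℂ)‖ ≤ 1 := by
      rw [Complex.norm_real, Real.norm_eq_abs, abs_le]
      exact ⟨by linarith [ht.1], ht.2⟩
    calc ‖g (t * x) + t * x * deriv g (t * x)‖
        ≤ ‖g (t * x)‖ + ‖(t:ℂ) * x * deriv g (t * x)‖ := norm_add_le _ _
      _ = ‖g (t * x)‖ + ‖(t:ℂ)‖ * ‖x‖ * ‖deriv g (t * x)‖ := by rw [norm_mul, norm_mul]
      _ ≤ C + 1 * (‖u‖ + r) * C' := by gcongr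
      _ = _ := by ring
  have key := intervalIntegral.hasDerivAt_integral_of_dominated_loc_of_deriv_le
    (a := 0) (b := 1) (μ := volume)
    (F := fun (x : ℂ) (t : ℝ) => x * g (t * x))
    (F' := fun (x : ℂ) (t : ℝ) => g (t * x) + t * x * deriv g (t * x)) (x₀ := u)
    (s := Metric.closedBall u r) (bound := fun _ => C + (‖u‖ + r) * C')
    (Metric.closedBall_mem_nhds u hr) ?_ ?_ ?_ ?_ ?_ ?_
  · have hint : ∫ t in (0:ℝ)..1, (g (t * u) + t * u * deriv g (t * u)) = g u := by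
      have hd : ∀ t ∈ uIcc (0:ℝ) 1, HasDerivAt (fun t : ℝ => (t:ℂ) * g (t * u))
          (g (t * u) + t * u * deriv g (t * u)) t := by
        intro t ht
        rw [hI] at ht
        have hz : (t:ℂ) * u ∈ Om := hs u hu t ht
        have h1 : HasDerivAt g (deriv g (t * u)) ((t:ℂ) * u) :=
          (hg.differentiableAt (hO.mem_nhds hz)).hasDerivAt
        have h2 : HasDerivAt (fun t : ℝ => (t:ℂ)) 1 t := Complex.ofRealCLM.hasDerivAt
        have h3 : HasDerivAt (fun t : ℝ => (t:ℂ) * u) (1 * u) t := h2.mul_const u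
        have h4 := h1.comp t h3
        have h5 := h2.mul h4
        refine h5.congr_deriv ?_
        rw [Function.comp_apply]
        ring
      rw [intervalIntegral.integral_eq_sub_of_hasDerivAt hd hcont'.intervalIntegrable]
      simp
    have := key.2
    rw [hint] at this
    exact this
  · filter_upwards [Metric.closedBall_mem_nhds u hr] with x hx
    exact ((hcont x hx).intervalIntegrable).aestronglyMeasurable_restrict_uIoc
  · exact (hcont u (Metric.mem_closedBall_self hr.le)).intervalIntegrable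
  · exact (hcont'.intervalIntegrable).aestronglyMeasurable_restrict_uIoc
  · exact Eventually.of_forall fun t ht x hx => hbd t (hIoc t ht) x hx
  · exact intervalIntegrable_const
  · refine Eventually.of_forall fun t ht x hx => ?_
    have hz : (t:ℂ) * x ∈ Om := hKO (hmem t (hIoc t ht) x hx)
    have h1 : HasDerivAt g (deriv g (t * x)) ((t:ℂ) * x) :=
      (hg.differentiableAt (hO.mem_nhds hz)).hasDerivAt
    have h3 : HasDerivAt (fun x : ℂ => (t:ℂ) * x) ((t:ℂ) * 1) x :=
      (hasDerivAt_id x).const_mul _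
    have h4 := h1.comp x h3
    have h5 := (hasDerivAt_id x).mul h4
    refine h5.congr_deriv ?_
    simp only [Function.comp_apply, id]
    ring

theorem differentiableOn_prim {Om : Set ℂ} (hO : IsOpen Om) (hs : Star Om)
    {g : ℂ → ℂ} (hg : DifferentiableOn ℂ g Om) : DifferentiableOn ℂ (prim g) Om :=
  fun _ hu => (hasDerivAt_prim hO hs hg hu).differentiableAt.differentiableWithinAt

/-- uniqueness of primitives on a star shaped domain -/
theorem eq_of_deriv_eq {Om : Set ℂ} (hs : Star Om) {f g : ℂ → ℂ}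
    {d : ℂ → ℂ} (hf : ∀ u ∈ Om, HasDerivAt f (d u) u) (hg : ∀ u ∈ Om, HasDerivAt g (d u) u)
    {u : ℂ} (hu : u ∈ Om) : f u - f 0 = g u - g 0 := by
  have h0 : ∀ t ∈ uIcc (0:ℝ) 1, HasDerivAt (fun t : ℝ => f (t * u) - g (t * u)) 0 t := by
    intro t ht
    rw [uIcc_of_le zero_le_one] at ht
    have hz : (t:ℂ) * u ∈ Om := hs u hu t ht
    have h2 : HasDerivAt (fun t : ℝ => (t:ℂ)) 1 t := Complex.ofRealCLM.hasDerivAt
    have h3 : HasDerivAt (fun t : ℝ => (t:ℂ) * u) (1 * u) t := h2.mul_const u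
    have h4 := ((hf _ hz).comp t h3).sub ((hg _ hz).comp t h3)
    exact h4.congr_deriv (sub_self _)
  have h1 := intervalIntegral.integral_eq_sub_of_hasDerivAt h0
    (by simp)
  simp only [intervalIntegral.integral_zero, ofReal_one, one_mul, ofReal_zero, zero_mul] at h1
  linear_combination -h1

end Vale.Agent.P030.H405
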