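import Vale.Agent.P030.H405.PSer

/-!
# P030: transition between the flat vectors on the upper half plane and the groups of `T/Defs`
(slots `1, l, L, Li2, f6, f7`), at the four cusps
-/

open PowerSeries Complex Set Filter Topology

namespace Vale.Agent.P030.H405

open T H462 H605

variable {u : ℂ}

/-! ### logarithms on the upper half plane -/

theorem log_mul_of {x y : ℂ} (hx : x ≠ 0) (hy : y ≠ 0) (h1 : -Real.pi < x.arg + y.arg)
    (h2 : x.arg + y.arg ≤ Real.pi) : log (x * y) = log x + log y :=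
  Complex.log_mul hx hy ⟨h1, h2⟩

theorem ne_zero_of_im {x : ℂ} (h : x.im ≠ 0) : x ≠ 0 := by
  rintro rfl; simp at h

theorem arg_pos_of_im {x : ℂ} (h : 0 < x.im) : 0 < x.arg ∧ x.arg < Real.pi := by
  constructor
  · rcases lt_or_eq_of_le (arg_nonneg_iff.2 h.le) with h1 | h1
    · exact h1
    · exfalso
      have := arg_eq_zero_iff.1 h1.symm
      exact h.ne' this.2
  · rcases lt_or_eq_of_le (arg_le_pi x) with h1 | h1
    · exact h1
    · exfalso
      have := arg_eq_pi_iff.1 h1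
      exact h.ne' this.2

theorem arg_neg_of_im {x : ℂ} (h : x.im < 0) : -Real.pi < x.arg ∧ x.arg < 0 :=
  ⟨neg_pi_lt_arg x, arg_neg_iff.2 h⟩

/-- `log (x y) = log x + log y` for `x`, `y` in opposite half planes -/
theorem log_mul_opp {x y : ℂ} (hx : 0 < x.im) (hy : y.im < 0) :
    log (x * y) = log x + log y := by
  have h1 := arg_pos_of_im hx
  have h2 := arg_neg_of_im hy
  exact log_mul_of (ne_zero_of_im hx.ne') (ne_zero_of_im hy.ne) (by linarith) (by linarith)

theorem log_inv_of_im {x : ℂ} (h : x.im ≠ 0) : log x⁻¹ = -log x := by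
  refine log_inv x ?_
  intro h1
  exact h (arg_eq_pi_iff.1 h1).2

theorem inv_im_neg {x : ℂ} (h : 0 < x.im) : x⁻¹.im < 0 := by
  rw [inv_im]
  exact div_neg_of_neg_of_pos (neg_neg_of_pos h) (normSq_pos.2 (ne_zero_of_im h.ne'))

theorem inv_im_pos {x : ℂ} (h : x.im < 0) : 0 < x⁻¹.im := by
  rw [inv_im]
  exact div_pos (neg_pos.2 h) (normSq_pos.2 (ne_zero_of_im h.ne))

/-- `log (-u) = log u - i π` on the upper half plane -/
theorem log_neg_up (hu : 0 < u.im) : log (-u) = log u - Real.pi * I := by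
  have h := arg_neg_eq_arg_sub_pi_of_im_pos hu
  apply Complex.ext
  · rw [log_re, norm_neg, sub_re, log_re]
    simp
  · rw [log_im, h, sub_im, log_im]
    simp

/-- quotient of two points of the upper half plane -/
theorem log_div_up {x y : ℂ} (hx : 0 < x.im) (hy : 0 < y.im) : log (x / y) = log x - log y := by
  rw [div_eq_mul_inv, log_mul_opp hx (inv_im_neg hy), log_inv_of_im hy.ne', sub_eq_add_neg]

/-- quotient of two points of the lower half plane -/
theorem log_div_dn {x y : ℂ} (hx : x.im < 0) (hy : y.im < 0) : log (x / y) = log x - log y := by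
  rw [div_eq_mul_inv, mul_comm, log_mul_opp (inv_im_pos hy) hx, log_inv_of_im hy.ne]
  ring

/-- multiplication by `2` -/
theorem log_two_mul {x : ℂ} (hx : x ≠ 0) : log (2 * x) = l2 + log x := by
  have h : (2:ℂ) * x = ((2:ℝ):ℂ) * x := by push_cast; ring
  rw [h, log_ofReal_mul (by norm_num) hx, l2]

theorem one_sub_im (hu : 0 < u.im) : (1 - u).im < 0 := by
  simpa using hu

theorem one_add_im (hu : 0 < u.im) : 0 < (1 + u).im := by
  simpa using hu

theorem neg_im_neg (hu : 0 < u.im) : (-u).im < 0 := by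
  simpa using hu

/-! ### the local logarithms -/

/-- `c1`: `log (1 - w) = l - log (1 - u)` -/
theorem c1_log_one_sub (hu : 0 < u.im) : log (1 - wm u) = l2 - log (1 - u) := by
  have h := Lf_wm (mem_Om_of_im hu.ne')
  rw [Lf, Lf] at h
  linear_combination -h

/-- `c1`: `log (1 + w) = l + log u - i π - log (1 - u)` -/
theorem c1_log_one_add (hu : 0 < u.im) :
    log (1 + wm u) = l2 + log u - Real.pi * I - log (1 - u) := by
  have h1 := one_sub_ne_zero (mem_Om_of_im hu.ne')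
  have h2 : u - 1 ≠ 0 := by
    intro h6; exact h1 (by rw [← neg_sub, h6, neg_zero])
  have h3 : 1 + wm u = 2 * (-u / (1 - u)) := by
    rw [wm]
    field_simp
    ring
  have h4 : -u / (1 - u) ≠ 0 := div_ne_zero (ne_zero_of_im (neg_im_neg hu).ne) h1
  rw [h3, log_two_mul h4, log_div_dn (neg_im_neg hu) (one_sub_im hu), log_neg_up hu]
  ring

theorem c1_im (hu : 0 < u.im) : 0 < (-(wm u)).im := by
  have h1 := one_sub_ne_zero (mem_Om_of_im hu.ne')
  have h2 : -(wm u) = -1 + ((2:ℝ):ℂ) * (1 - u)⁻¹ := by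
    have h3 := one_sub_wm (ne_one_of_mem (mem_Om_of_im hu.ne'))
    rw [div_eq_mul_inv] at h3
    push_cast
    linear_combination h3
  rw [h2, add_im, im_ofReal_mul]
  have := inv_im_pos (one_sub_im hu)
  simp only [neg_im, one_im, neg_zero, zero_add]
  linarith

/-- `c1`: `log (-w) = log (1 + u) - log (1 - u)` -/
theorem c1_log_neg (hu : 0 < u.im) : log (-(wm u)) = log (1 + u) - log (1 - u) := by
  have hO := mem_Om_of_im hu.ne'
  have h1 := one_sub_ne_zero hO
  have h2 : 1 + u = -(wm u) * (1 - u) := by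
    have h3 : u - 1 ≠ 0 := by
      intro h6; exact h1 (by rw [← neg_sub, h6, neg_zero])
    rw [wm]
    field_simp
    ring
  have h4 := log_mul_opp (c1_im hu) (one_sub_im hu)
  rw [← h2] at h4
  linear_combination -h4

/-- `c2`: `log (-1/u) = i π - log u` -/
theorem c2_log_neg (hu : 0 < u.im) : log (-u⁻¹) = Real.pi * I - log u := by
  rw [← inv_neg, log_inv_of_im (neg_im_neg hu).ne, log_neg_up hu]
  ring

/-- `c2`: `log (1 + 1/u) = log (1 + u) - log u` -/
theorem c2_log_one_add (hu : 0 < u.im) : log (1 + u⁻¹) = log (1 + u) - log u := by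
  have h0 := ne_zero_of_im hu.ne'
  have h1 : 1 + u⁻¹ = (1 + u) / u := by field_simp; ring
  rw [h1, log_div_up (one_add_im hu) hu]

/-- `c2`: `log (1 - 1/u) = log (1 - u) - log u + i π` -/
theorem c2_log_one_sub (hu : 0 < u.im) :
    log (1 - u⁻¹) = log (1 - u) - log u + Real.pi * I := by
  have h0 := ne_zero_of_im hu.ne'
  have h1 : 1 - u⁻¹ = (1 - u) / (-u) := by field_simp; ring
  rw [h1, log_div_dn (one_sub_im hu) (neg_im_neg hu), log_neg_up hu]
  ring

/-- `t = (u - 1) / (u + 1)` -/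
noncomputable def tm (u : ℂ) : ℂ := (u - 1) / (u + 1)

theorem one_add_ne_zero_up (hu : 0 < u.im) : u + 1 ≠ 0 := by
  rw [add_comm]; exact ne_zero_of_im (one_add_im hu).ne'

theorem one_sub_tm (hu : 0 < u.im) : 1 - tm u = 2 * (1 + u)⁻¹ := by
  have h1 := one_add_ne_zero_up hu
  have h2 : (1:ℂ) + u ≠ 0 := by rwa [add_comm]
  rw [tm]
  field_simp
  ring

theorem one_add_tm (hu : 0 < u.im) : 1 + tm u = 2 * (u / (1 + u)) := by
  have h1 := one_add_ne_zero_up hu
  have h2 : (1:ℂ) + u ≠ 0 := by rwa [add_comm]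
  rw [tm]
  field_simp
  ring

/-- `c3`: `log (1 - t) = l - log (1 + u)` -/
theorem c3_log_one_sub (hu : 0 < u.im) : log (1 - tm u) = l2 - log (1 + u) := by
  have h1 := ne_zero_of_im (one_add_im hu).ne'
  rw [one_sub_tm hu, log_two_mul (inv_ne_zero h1), log_inv_of_im (one_add_im hu).ne']
  ring

/-- `c3`: `log (1 + t) = l + log u - log (1 + u)` -/
theorem c3_log_one_add (hu : 0 < u.im) : log (1 + tm u) = l2 + log u - log (1 + u) := by
  have h1 := ne_zero_of_im (one_add_im hu).ne'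
  rw [one_add_tm hu, log_two_mul (div_ne_zero (ne_zero_of_im hu.ne') h1),
    log_div_up hu (one_add_im hu)]
  ring

theorem c3_im (hu : 0 < u.im) : (-(tm u)).im < 0 := by
  have h1 := one_sub_tm hu
  have h2 : -(tm u) = -1 + ((2:ℝ):ℂ) * (1 + u)⁻¹ := by
    push_cast
    linear_combination h1
  rw [h2, add_im, im_ofReal_mul]
  have := inv_im_neg (one_add_im hu)
  simp only [neg_im, one_im, neg_zero, zero_add]
  linarith

/-- `c3`: `log (-t) = log (1 - u) - log (1 + u)` -/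
theorem c3_log_neg (hu : 0 < u.im) : log (-(tm u)) = log (1 - u) - log (1 + u) := by
  have h2 : 1 - u = (1 + u) * -(tm u) := by
    have h3 := one_add_ne_zero_up hu
    rw [tm]
    field_simp
    ring
  have h4 := log_mul_opp (one_add_im hu) (c3_im hu)
  rw [← h2] at h4
  linear_combination -h4

/-! ### the flat vectors (slots `F`, `θF` empty) -/

/-- `a` -/
noncomputable def flA (u : ℂ) : Fin 8 → ℂ :=
  ![0, 1, 0, 0, log (1 + u) - log (1 - u) / 2, -log (1 - u) / 2, 0, 0]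

/-- `c` -/
noncomputable def flC (u : ℂ) : Fin 8 → ℂ :=
  ![0, 0, 1, log u, log (1 + u), -log (1 - u), 0, 0]

/-- `b` -/
noncomputable def flB (u : ℂ) : Fin 8 → ℂ :=
  ![0, 1, -1, Real.pi * I - log u, (l2 - log (1 - u)) / 2, (log (1 - u) - l2) / 2, 0, 0]

/-- unit vectors -/
def Ev (i : Fin 8) : Fin 8 → ℂ := Pi.single i 1

theorem Ev_same (i : Fin 8) : Ev i i = 1 := Pi.single_eq_same i 1

theorem Ev_ne {i j : Fin 8} (h : j ≠ i) : Ev i j = 0 := Pi.single_eq_of_ne h 1

/-- `b = a - c + i π d + (l/2) (g - h)` -/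
theorem flB_eq (u : ℂ) : flB u = flA u - flC u + (Real.pi * I) • Ev 3
    + (l2 / 2) • (Ev 4 - Ev 5) := by
  funext j
  simp only [Pi.add_apply, Pi.sub_apply, Pi.smul_apply, smul_eq_mul]
  fin_cases j <;> simp [flA, flB, flC, Ev] <;> ring

/-! ### `c0` -/

theorem zl_c0 (hz : ‖u‖ < 1) (j : Fin 8) : evq (tup0 .zl j) u = flA u j := by
  fin_cases j
  · simp [tup0, evq_zero, flA]
  · simp [tup0, evq_one, flA]
  · simp [tup0, evq_zero, flA]
  · simp [tup0, evq_zero, flA]
  · simp only [tup0, flA, Fin.reduceFinMk, Matrix.cons_val]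
    rw [evq_add (PG_sc _ PG_lgm) PG_lgp hz, ev_sc _ PG_lgm hz, ev_lgm hz, ev_lgp hz, Lf]
    push_cast
    ring
  · simp only [tup0, flA, Fin.reduceFinMk, Matrix.cons_val]
    rw [ev_sc _ PG_lgm hz, ev_lgm hz, Lf]
    push_cast
    ring
  · simp [tup0, evq_zero, flA]
  · simp [tup0, evq_zero, flA]

theorem zab_c0 (z : ℂ) (j : Fin 8) : evq (tup0 .zab j) z = Ev 3 j := by
  fin_cases j <;> simp [tup0, evq_zero, evq_one, Ev]

/-! ### `c1` -/

theorem wl_c1 (hu : 0 < u.im) (hz : ‖wm u‖ < 1) (j : Fin 8) :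
    evq (tup0 .wl j) (wm u) = flB u j := by
  fin_cases j
  · simp [tup0, evq_zero, flB]
  · simp [tup0, evq_one, flB]
  · simp only [tup0, flB, Fin.reduceFinMk, Matrix.cons_val]
    rw [evq_neg, evq_one]
  · simp only [tup0, flB, Fin.reduceFinMk, Matrix.cons_val]
    rw [evq_neg, evq_add PG_lgp PG_lgm hz, ev_lgm hz, ev_lgp hz, Lf, c1_log_one_add hu,
      c1_log_one_sub hu]
    ring
  · simp only [tup0, flB, Fin.reduceFinMk, Matrix.cons_val]
    rw [evq_neg, ev_sc _ PG_lgm hz, ev_lgm hz, Lf, c1_log_one_sub hu]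
    push_cast
    ring
  · simp only [tup0, flB, Fin.reduceFinMk, Matrix.cons_val]
    rw [ev_sc _ PG_lgm hz, ev_lgm hz, Lf, c1_log_one_sub hu]
    push_cast
    ring
  · simp [tup0, evq_zero, flB]
  · simp [tup0, evq_zero, flB]

theorem wab_c1 (z : ℂ) (j : Fin 8) : evq (tup0 .wab j) z = Ev 3 j := by
  fin_cases j <;> simp [tup0, evq_zero, evq_one, Ev]

theorem wf7_c1 (z : ℂ) (j : Fin 8) : evq (tup0 .wf7 j) z = Ev 5 j := by
  fin_cases j <;> simp [tup0, evq_zero, evq_one, Ev]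

theorem wy_c1 (z : ℂ) (j : Fin 8) (hj : j.val < 6) :
    evq (tup0 .wy j) z = -(4 / 3) * (Ev 3 j + Ev 4 j) := by
  fin_cases j
  · simp [tup0, evq_zero, Ev]
  · simp [tup0, evq_zero, Ev]
  · simp [tup0, evq_zero, Ev]
  · simp [tup0, evq_neg, evq_C, Ev]
  · simp [tup0, evq_neg, evq_C, Ev]
  · simp [tup0, evq_zero, Ev]
  · simp at hj
  · simp at hj

/-! ### `c2` -/

theorem v2_c2 (z : ℂ) (j : Fin 8) : evq (tup0 .v2 j) z = Ev 5 j - Ev 3 j - Ev 4 j := by
  fin_cases j <;> simp [tup0, evq_zero, evq_one, evq_neg, Ev]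

theorem vl_c2 (z : ℂ) (j : Fin 8) : evq (tup0 .vl j) z = Ev 5 j - Ev 4 j := by
  fin_cases j <;> simp [tup0, evq_zero, evq_one, evq_neg, Ev]

/-- `vb + T v2 = c - i π (d + g)`, `T = log (-1/u)` -/
theorem vb_c2 (hu : 0 < u.im) (hz : ‖u⁻¹‖ < 1) (j : Fin 8) :
    evq (tup0 .vb j) u⁻¹ + log (-u⁻¹) * evq (tup0 .v2 j) u⁻¹
      = flC u j - Real.pi * I * (Ev 3 j + Ev 4 j) := by
  rw [v2_c2, c2_log_neg hu]
  fin_cases j
  · simp [tup0, evq_zero, flC, Ev]
  · simp [tup0, evq_zero, flC, Ev]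
  · simp [tup0, evq_one, flC, Ev]
  · simp [tup0, evq_zero, flC, Ev]
  · have h : evq lgp u⁻¹ = log (1 + u) - log u := by rw [ev_lgp hz, c2_log_one_add hu]
    simp [tup0, flC, Ev, h]
  · have h : evq lgm u⁻¹ = -(log (1 - u) - log u + Real.pi * I) := by
      rw [ev_lgm hz, Lf, c2_log_one_sub hu]
    simp [tup0, flC, Ev, h]
    ring
  · simp [tup0, evq_zero, flC, Ev]
  · simp [tup0, evq_zero, flC, Ev]

/-! ### `c3` -/

theorem x2_c3 (z : ℂ) (j : Fin 8) (hj : j.val < 6) : evq (tup0 .x2 j) z = 1 / 2 * Ev 5 j := by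
  fin_cases j
  · simp [tup0, evq_zero, Ev]
  · simp [tup0, evq_zero, Ev]
  · simp [tup0, evq_zero, Ev]
  · simp [tup0, evq_zero, Ev]
  · simp [tup0, evq_zero, Ev]
  · simp only [tup0, Fin.reduceFinMk, Matrix.cons_val, evq_C, Ev]
    simp
  · simp at hj
  · simp at hj

theorem xl_c3 (z : ℂ) (j : Fin 8) (hj : j.val < 6) : evq (tup0 .xl j) z = Ev 5 j - Ev 4 j := by
  fin_cases j
  · simp [tup0, evq_zero, Ev]
  · simp [tup0, evq_zero, Ev]
  · simp [tup0, evq_zero, Ev]
  · simp [tup0, evq_zero, Ev]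
  · simp [tup0, evq_neg, evq_one, Ev]
  · simp [tup0, evq_one, Ev]
  · simp at hj
  · simp at hj

/-- `x1 + 2 T x2 = -c - l (h - g)`, `T = log (-t)` -/
theorem x1_c3 (hu : 0 < u.im) (hz : ‖tm u‖ < 1) (j : Fin 8) (hj : j.val < 6) :
    evq (tup0 .x1 j) (tm u) + 2 * log (-(tm u)) * evq (tup0 .x2 j) (tm u)
      = -flC u j - l2 * (Ev 5 j - Ev 4 j) := by
  have hm : evq lgm (tm u) = -(l2 - log (1 + u)) := by
    rw [ev_lgm hz, Lf, c3_log_one_sub hu]
  have hp : evq lgp (tm u) = l2 + log u - log (1 + u) := by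
    rw [ev_lgp hz, c3_log_one_add hu]
  rw [x2_c3 _ j hj, c3_log_neg hu]
  fin_cases j
  · simp [tup0, evq_zero, flC, Ev]
  · simp [tup0, evq_zero, flC, Ev]
  · simp [tup0, evq_one, evq_neg, flC, Ev]
  · simp only [tup0, flC, Fin.reduceFinMk, Matrix.cons_val]
    rw [evq_neg, evq_add PG_lgp PG_lgm hz, hm, hp]
    simp [Ev]
  · have h : evq (-lgm) (tm u) = l2 - log (1 + u) := by rw [evq_neg, hm]; ring
    simp [tup0, flC, Ev, h]
    ring
  · simp [tup0, flC, Ev, hm]
    ring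
  · simp at hj
  · simp at hj

end Vale.Agent.P030.H405
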